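import Vale.Agent.Lib.P131.Defs

/-! # P131: operators whose commutant is transitive -/

namespace Vale.Agent.Lib.P131

variable {H : Type*} [NormedAddCommGroup H] [InnerProductSpace ℂ H]

theorem ker_hyperinvariant (T S : H →L[ℂ] H) (hS : InBicommutant T S) :
    IsHyperinvariant T (LinearMap.ker (S : H →ₗ[ℂ] H)) := by
  intro A hA x hx
  rw [LinearMap.mem_ker] at hx ⊢
  have h := congrArg (fun B : H →L[ℂ] H => B x) (hS A hA)
  simp only [ContinuousLinearMap.mul_apply] at h
  have hx' : S x = 0 := hx
  rw [hx', map_zero] at h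
  exact h.symm

theorem closure_range_hyperinvariant (T S : H →L[ℂ] H) (hS : InBicommutant T S) :
    IsHyperinvariant T (LinearMap.range (S : H →ₗ[ℂ] H)).topologicalClosure := by
  intro A hA x hx
  rw [← SetLike.mem_coe, Submodule.topologicalClosure_coe] at hx ⊢
  refine map_mem_closure A.continuous hx ?_
  rintro _ ⟨y, rfl⟩
  refine ⟨A y, ?_⟩
  have h := congrArg (fun B : H →L[ℂ] H => B y) (hS A hA)
  simp only [ContinuousLinearMap.mul_apply] at h
  exact h.symm

/-- Every operator of the bicommutant is zero or injective with dense range. -/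
theorem bicommutant_dichotomy (T : H →L[ℂ] H) (hT : ¬ HasHyperinvariant T) (S : H →L[ℂ] H)
    (hS : InBicommutant T S) : S = 0 ∨ (Function.Injective S ∧ DenseRange S) := by
  by_cases h0 : S = 0
  · exact Or.inl h0
  right
  have hex : ∃ x, S x ≠ 0 := by
    by_contra hcon
    push Not at hcon
    exact h0 (ContinuousLinearMap.ext hcon)
  obtain ⟨x0, hx0⟩ := hex
  constructor
  · -- the kernel is closed, hyperinvariant and not everything
    have hker : LinearMap.ker (S : H →ₗ[ℂ] H) = ⊥ := by
      by_contra hne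
      apply hT
      refine ⟨LinearMap.ker (S : H →ₗ[ℂ] H), S.isClosed_ker, hne, ?_, ker_hyperinvariant T S hS⟩
      intro htop
      have : x0 ∈ LinearMap.ker (S : H →ₗ[ℂ] H) := htop ▸ Submodule.mem_top
      exact hx0 this
    exact LinearMap.ker_eq_bot.mp hker
  · have hran : (LinearMap.range (S : H →ₗ[ℂ] H)).topologicalClosure = ⊤ := by
      by_contra hne
      apply hT
      refine ⟨_, Submodule.isClosed_topologicalClosure _, ?_, hne,
        closure_range_hyperinvariant T S hS⟩
      intro hbot
      have hmem : S x0 ∈ (LinearMap.range (S : H →ₗ[ℂ] H)).topologicalClosure :=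
        Submodule.le_topologicalClosure _ ⟨x0, rfl⟩
      rw [hbot, Submodule.mem_bot] at hmem
      exact hx0 hmem
    intro y
    have : y ∈ (LinearMap.range (S : H →ₗ[ℂ] H)).topologicalClosure := hran ▸ Submodule.mem_top
    rw [← SetLike.mem_coe, Submodule.topologicalClosure_coe] at this
    exact this

theorem inBicommutant_self (T : H →L[ℂ] H) : InBicommutant T T := fun _ hA => hA

theorem inBicommutant_sub_smul (T : H →L[ℂ] H) (c : ℂ) :
    InBicommutant T (T - c • (1 : H →L[ℂ] H)) := by
  intro A hA
  rw [mul_sub, sub_mul, hA]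
  simp

theorem no_zero_divisors (T : H →L[ℂ] H) (hT : ¬ HasHyperinvariant T) (S1 S2 : H →L[ℂ] H)
    (h1 : InBicommutant T S1) (h : S1 * S2 = 0) : S1 = 0 ∨ S2 = 0 := by
  rcases bicommutant_dichotomy T hT S1 h1 with h0 | ⟨hinj, -⟩
  · exact Or.inl h0
  · right
    ext x
    apply hinj
    have := congrArg (fun B : H →L[ℂ] H => B x) h
    simpa using this

/-- Every nonzero vector is cyclic for the commutant. -/
theorem orbit_dense (T : H →L[ℂ] H) (hT : ¬ HasHyperinvariant T) (x : H) (hx : x ≠ 0) :
    Dense {y : H | ∃ A : H →L[ℂ] H, A * T = T * A ∧ y = A x} := by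
  -- the orbit is a subspace
  let M : Submodule ℂ H :=
    { carrier := {y : H | ∃ A : H →L[ℂ] H, A * T = T * A ∧ y = A x}
      add_mem' := by
        rintro _ _ ⟨A, hA, rfl⟩ ⟨B, hB, rfl⟩
        exact ⟨A + B, by rw [add_mul, mul_add, hA, hB], rfl⟩
      zero_mem' := ⟨0, by simp, by simp⟩
      smul_mem' := by
        rintro c _ ⟨A, hA, rfl⟩
        exact ⟨c • A, by rw [smul_mul_assoc, mul_smul_comm, hA], rfl⟩ }
  have hxM : x ∈ M := ⟨1, by simp, by simp⟩
  have htop : M.topologicalClosure = ⊤ := by
    by_contra hne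
    apply hT
    refine ⟨_, Submodule.isClosed_topologicalClosure _, ?_, hne, ?_⟩
    · intro hbot
      have hmem : x ∈ M.topologicalClosure := Submodule.le_topologicalClosure _ hxM
      rw [hbot, Submodule.mem_bot] at hmem
      exact hx hmem
    · intro B hB y hy
      rw [← SetLike.mem_coe, Submodule.topologicalClosure_coe] at hy ⊢
      refine map_mem_closure B.continuous hy ?_
      rintro _ ⟨A, hA, rfl⟩
      exact ⟨B * A, by rw [mul_assoc, hA, ← mul_assoc, hB, mul_assoc], rfl⟩
  intro y
  have : y ∈ M.topologicalClosure := htop ▸ Submodule.mem_top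
  rw [← SetLike.mem_coe, Submodule.topologicalClosure_coe] at this
  exact this

end Vale.Agent.Lib.P131
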