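import Mathlib

/-! # P131: hyperinvariant subspaces, definitions -/

namespace Vale.Agent.Lib.P131

variable {H : Type*} [NormedAddCommGroup H] [InnerProductSpace ℂ H]

/-- The subspace `M` is invariant under every bounded operator commuting with `T`. -/
def IsHyperinvariant (T : H →L[ℂ] H) (M : Submodule ℂ H) : Prop :=
  ∀ A : H →L[ℂ] H, A * T = T * A → ∀ x ∈ M, A x ∈ M

/-- `T` has a nontrivial closed hyperinvariant subspace. -/
def HasHyperinvariant (T : H →L[ℂ] H) : Prop :=
  ∃ M : Submodule ℂ H, IsClosed (M : Set H) ∧ M ≠ ⊥ ∧ M ≠ ⊤ ∧ IsHyperinvariant T M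

/-- `S` commutes with every bounded operator commuting with `T`. -/
def InBicommutant (T S : H →L[ℂ] H) : Prop :=
  ∀ A : H →L[ℂ] H, A * T = T * A → A * S = S * A

/-- `T` is not a scalar multiple of the identity. -/
def Nonscalar (T : H →L[ℂ] H) : Prop := ∀ c : ℂ, T ≠ c • (1 : H →L[ℂ] H)

end Vale.Agent.Lib.P131
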