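import Vale.Agent.Lib.P131.Basic

/-! # P131: a nonscalar operator with transitive commutant is not algebraic -/

namespace Vale.Agent.Lib.P131

variable {H : Type*} [NormedAddCommGroup H] [InnerProductSpace ℂ H]

theorem inBicommutant_aeval (T : H →L[ℂ] H) (p : Polynomial ℂ) :
    InBicommutant T (Polynomial.aeval T p) := by
  intro A hA
  have hc : Commute A T := hA
  have : Commute A (Polynomial.aeval T p) := by
    induction p using Polynomial.induction_on' with
    | add p q hp hq =>
      rw [map_add]
      exact hp.add_right hq
    | monomial n a =>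
      rw [Polynomial.aeval_monomial]
      exact (Algebra.commute_algebraMap_right a A).mul_right (hc.pow_right n)
  exact this

theorem aeval_ne_zero (T : H →L[ℂ] H) (hT : ¬ HasHyperinvariant T) (hns : Nonscalar T)
    (p : Polynomial ℂ) (hp : p ≠ 0) : Polynomial.aeval T p ≠ 0 := by
  have hone : (1 : H →L[ℂ] H) ≠ 0 := by
    intro h
    apply hns 0
    rw [zero_smul]
    calc T = T * 1 := (mul_one T).symm
      _ = 0 := by rw [h, mul_zero]
  have key : ∀ (n : ℕ) (p : Polynomial ℂ), p.natDegree = n → p ≠ 0 →
      Polynomial.aeval T p ≠ 0 := by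
    intro n
    induction n with
    | zero =>
      intro p hdeg hp h0
      rw [Polynomial.eq_C_of_natDegree_eq_zero hdeg, Polynomial.aeval_C] at h0
      have ha : p.coeff 0 ≠ 0 := by
        intro h
        apply hp
        rw [Polynomial.eq_C_of_natDegree_eq_zero hdeg, h, Polynomial.C_0]
      rw [Algebra.algebraMap_eq_smul_one] at h0
      exact hone ((smul_eq_zero.mp h0).resolve_left ha)
    | succ n ih =>
      intro p hdeg hp h0
      have hd : p.degree ≠ 0 := by
        intro h
        have h2 : p.natDegree = 0 := Polynomial.natDegree_eq_of_degree_eq_some h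
        rw [hdeg] at h2
        exact Nat.succ_ne_zero n h2
      obtain ⟨c, hc⟩ := IsAlgClosed.exists_root p hd
      obtain ⟨q, hq⟩ := Polynomial.dvd_iff_isRoot.mpr hc
      have hq0 : q ≠ 0 := by
        intro h
        apply hp
        rw [hq, h, mul_zero]
      have hqdeg : q.natDegree = n := by
        have := Polynomial.natDegree_mul (Polynomial.X_sub_C_ne_zero c) hq0
        rw [← hq, hdeg, Polynomial.natDegree_X_sub_C] at this
        omega
      rw [hq, map_mul] at h0
      have e : Polynomial.aeval T (Polynomial.X - Polynomial.C c) = T - c • (1 : H →L[ℂ] H) := by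
        simp [Algebra.algebraMap_eq_smul_one]
      rw [e] at h0
      rcases no_zero_divisors T hT _ _ (inBicommutant_sub_smul T c) h0 with h | h
      · exact hns c (sub_eq_zero.mp h)
      · exact ih q hqdeg hq0 h
  exact key _ p rfl hp

end Vale.Agent.Lib.P131
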